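import Vale.Agent.P082.Main
import Vale.Agent.P082.Hoch

theorem Vale.Agent.Results.P082.Cohomology.result {H : Type*} [NormedAddCommGroup H]
    [InnerProductSpace ℂ H] [CompleteSpace H] (M : VonNeumannAlgebra H) (n : ℕ)
    (f : ContinuousMultilinearMap ℂ (fun _ : Fin (n + 1) => M.toStarSubalgebra) M.toStarSubalgebra)
    (hf : ∀ a, Vale.Agent.P082.hoch (n + 1) f a = 0) :
    ∃ g : ContinuousMultilinearMap ℂ (fun _ : Fin n => M.toStarSubalgebra) M.toStarSubalgebra,
      ∀ a, f a = Vale.Agent.P082.hoch n g a := by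
  have : IsClosed (M.toStarSubalgebra : Set (H →L[ℂ] H)) := by
    rw [M.coe_toStarSubalgebra, ← M.centralizer_centralizer]
    exact Set.isClosed_centralizer _
  exact Vale.Agent.P082.vanish_of_cob
    (fun _ _ h => Vale.Agent.P082.cob_one (Vale.Agent.P082.isVN_subtype M) h) n f hf
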